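import Vale.Agent.P183.R2.H577.Base

/-! P183: a complete family of orthogonal idempotents of a finite ring refines to a family whose
corners are local (or zero). -/

namespace Vale.Agent.P183.H577

variable {R : Type} [Ring R]

/-- in the corner of `f` one of `x`, `f - x` is invertible -/
def Loc (f : R) : Prop := ∀ x, f * x = x → x * f = x →
  (∃ y, f * y = y ∧ y * f = y ∧ x * y = f ∧ y * x = f) ∨
  (∃ y, f * y = y ∧ y * f = y ∧ (f - x) * y = f ∧ y * (f - x) = f)

theorem exists_idem_pow [Finite R] (x : R) : ∃ N : ℕ, 0 < N ∧ x ^ N * x ^ N = x ^ N := by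
  obtain ⟨a, b, hab, h⟩ : ∃ a b : ℕ, a < b ∧ x ^ a = x ^ b := by
    obtain ⟨a, b, hab, h⟩ := Finite.exists_ne_map_eq_of_infinite (fun k : ℕ => x ^ k)
    rcases lt_or_gt_of_ne hab with h1 | h1
    · exact ⟨a, b, h1, h⟩
    · exact ⟨b, a, h1, h.symm⟩
  have h1 : ∀ c, x ^ (a + c + (b - a)) = x ^ (a + c) := by
    intro c
    have h2 : a + c + (b - a) = b + c := by omega
    rw [h2, pow_add, ← h, ← pow_add]
  have h2 : ∀ k c : ℕ, x ^ (a + c + k * (b - a)) = x ^ (a + c) := by
    intro k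
    induction k with
    | zero => intro c; rw [Nat.zero_mul, Nat.add_zero]
    | succ k ih =>
      intro c
      have h3 : a + c + (k + 1) * (b - a) = a + (c + k * (b - a)) + (b - a) := by ring
      rw [h3, h1, ← add_assoc, ih]
  have hd : 1 ≤ b - a := by omega
  have hN : a + 1 ≤ (a + 1) * (b - a) := Nat.le_mul_of_pos_right _ hd
  refine ⟨(a + 1) * (b - a), by omega, ?_⟩
  obtain ⟨c, hc⟩ : ∃ c, (a + 1) * (b - a) = a + c := ⟨(a + 1) * (b - a) - a, by omega⟩
  rw [← pow_add]
  have h3 := h2 (a + 1) c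
  rw [← hc] at h3
  exact h3

/-- In a corner which is not local there is an idempotent different from `0` and `e`. -/
theorem exists_idem [Finite R] {e : R} (he : e * e = e) (h : ¬ Loc e) :
    ∃ g : R, g * g = g ∧ e * g = g ∧ g * e = g ∧ g ≠ 0 ∧ g ≠ e := by
  unfold Loc at h
  push Not at h
  obtain ⟨x, hx1, hx2, h1, h2⟩ := h
  obtain ⟨N, hN, hg⟩ := exists_idem_pow x
  have hl : ∀ k, 0 < k → e * x ^ k = x ^ k := by
    intro k hk
    obtain ⟨j, rfl⟩ := Nat.exists_eq_succ_of_ne_zero hk.ne'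
    rw [pow_succ', ← mul_assoc, hx1]
  have hr : ∀ k, 0 < k → x ^ k * e = x ^ k := by
    intro k hk
    obtain ⟨j, rfl⟩ := Nat.exists_eq_succ_of_ne_zero hk.ne'
    rw [pow_succ, mul_assoc, hx2]
  refine ⟨x ^ N, hg, hl N hN, hr N hN, ?_, ?_⟩
  · intro h0
    obtain ⟨y, hy⟩ : ∃ y : R, y = ∑ i ∈ Finset.range N, x ^ i := ⟨_, rfl⟩
    have hy1 : (1 - x) * y = 1 := by
      have := mul_neg_geom_sum x N
      rw [← hy, h0, sub_zero] at this
      exact this
    have hy2 : y * (1 - x) = 1 := by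
      have := geom_sum_mul_neg x N
      rw [← hy, h0, sub_zero] at this
      exact this
    have hye : e * y = y * e := by
      rw [hy, Finset.mul_sum, Finset.sum_mul]
      refine Finset.sum_congr rfl fun i _ => ?_
      rcases Nat.eq_zero_or_pos i with h3 | h3
      · rw [h3, pow_zero, mul_one, one_mul]
      · rw [hl i h3, hr i h3]
    refine h2 (e * y) ?_ ?_ ?_ ?_
    · rw [← mul_assoc, he]
    · rw [mul_assoc, ← hye, ← mul_assoc, he]
    · calc (e - x) * (e * y) = e * ((1 - x) * y) := by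
            rw [sub_mul, ← mul_assoc, he, ← mul_assoc, hx2, sub_mul, one_mul, mul_sub,
              ← mul_assoc, hx1]
        _ = e := by rw [hy1, mul_one]
    · calc (e * y) * (e - x) = (y * (1 - x)) * e := by
            rw [hye, mul_assoc, mul_sub, he, hx1, mul_sub, mul_sub, mul_one, sub_mul, mul_assoc,
              hx2]
        _ = e := by rw [hy2, one_mul]
  · intro h0
    refine h1 (x ^ (2 * N - 1)) (hl _ (by omega)) (hr _ (by omega)) ?_ ?_
    · rw [← pow_succ', show 2 * N - 1 + 1 = N + N by omega, pow_add, h0, he]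
    · rw [← pow_succ, show 2 * N - 1 + 1 = N + N by omega, pow_add, h0, he]

/-- Every idempotent is a finite sum of orthogonal idempotents with local corners. -/
theorem refine_one [Finite R] : ∀ (k : ℕ) (e : R), e * e = e →
    Nat.card {x : R // e * x = x ∧ x * e = x} = k →
    ∃ (κ : Type) (_ : Fintype κ) (f : κ → R), (∀ i, f i * f i = f i) ∧
      (∀ i j, i ≠ j → f i * f j = 0) ∧ ∑ i, f i = e ∧ (∀ i, e * f i = f i ∧ f i * e = f i) ∧
      ∀ i, Loc (f i) := by
  intro k
  induction k using Nat.strong_induction_on with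
  | _ k ih =>
  intro e he hk
  by_cases hL : Loc e
  · refine ⟨Unit, inferInstance, fun _ => e, fun _ => he, fun i j h => absurd rfl h, ?_,
      fun _ => ⟨he, he⟩, fun _ => hL⟩
    simp
  obtain ⟨g, hg, hg1, hg2, hg0, hge⟩ := exists_idem he hL
  have key : ∀ q : R, q * q = q → e * q = q → q * e = q → q ≠ e →
      Nat.card {x : R // q * x = x ∧ x * q = x} < k := by
    intro q hq hq1 hq2 hq3
    rw [← hk]
    change Set.ncard {x : R | q * x = x ∧ x * q = x} < Set.ncard {x : R | e * x = x ∧ x * e = x}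
    refine Set.ncard_lt_ncard ⟨?_, ?_⟩ (Set.toFinite _)
    · rintro x ⟨h1, h2⟩
      refine ⟨?_, ?_⟩
      · rw [← h1, ← mul_assoc, hq1]
      · rw [← h2, mul_assoc, hq2]
    · intro hsub
      have h3 := (hsub (⟨he, he⟩ : e ∈ {x : R | e * x = x ∧ x * e = x})).1
      exact hq3 (hq2.symm.trans h3)
  have hg' : (e - g) * (e - g) = e - g := by
    rw [sub_mul, mul_sub, mul_sub, he, hg1, hg2, hg, sub_self, sub_zero]
  have hg1' : e * (e - g) = e - g := by rw [mul_sub, he, hg1]
  have hg2' : (e - g) * e = e - g := by rw [sub_mul, he, hg2]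
  have hgne : e - g ≠ e := fun h => hg0 (by
    have := sub_eq_self.mp h
    exact this)
  obtain ⟨κ₁, _, f₁, a1, a2, a3, a4, a5⟩ := ih _ (key g hg hg1 hg2 hge) g hg rfl
  obtain ⟨κ₂, _, f₂, b1, b2, b3, b4, b5⟩ := ih _ (key (e - g) hg' hg1' hg2' hgne) (e - g) hg' rfl
  have h12 : g * (e - g) = 0 := by rw [mul_sub, hg2, hg, sub_self]
  have h21 : (e - g) * g = 0 := by rw [sub_mul, hg1, hg, sub_self]
  refine ⟨κ₁ ⊕ κ₂, inferInstance, Sum.elim f₁ f₂, ?_, ?_, ?_, ?_, ?_⟩
  · rintro (i | i)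
    · exact a1 i
    · exact b1 i
  · rintro (i | i) (j | j) hij
    · exact a2 i j fun h => hij (by rw [h])
    · change f₁ i * f₂ j = 0
      rw [← (a4 i).2, ← (b4 j).1, mul_assoc, ← mul_assoc g, h12, zero_mul, mul_zero]
    · change f₂ i * f₁ j = 0
      rw [← (b4 i).2, ← (a4 j).1, mul_assoc, ← mul_assoc (e - g), h21, zero_mul, mul_zero]
    · exact b2 i j fun h => hij (by rw [h])
  · rw [Fintype.sum_sum_type]
    simp only [Sum.elim_inl, Sum.elim_inr]
    rw [a3, b3]
    abel
  · rintro (i | i)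
    · refine ⟨?_, ?_⟩
      · change e * f₁ i = f₁ i
        rw [← (a4 i).1, ← mul_assoc, hg1]
      · change f₁ i * e = f₁ i
        rw [← (a4 i).2, mul_assoc, hg2]
    · refine ⟨?_, ?_⟩
      · change e * f₂ i = f₂ i
        rw [← (b4 i).1, ← mul_assoc, hg1']
      · change f₂ i * e = f₂ i
        rw [← (b4 i).2, mul_assoc, hg2']
  · rintro (i | i)
    · exact a5 i
    · exact b5 i

/-- ROW 9 (refinement of a complete family of orthogonal idempotents to local ones). -/
theorem refine_row [Finite R] {n : ℕ} (e : Fin n → R) (he : ∀ i, e i * e i = e i)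
    (ho : ∀ i j, i ≠ j → e i * e j = 0) (hs : ∑ i, e i = 1) :
    ∃ (m : ℕ) (f : Fin m → R), (∀ i, f i * f i = f i) ∧ (∀ i j, i ≠ j → f i * f j = 0) ∧
      ∑ i, f i = 1 ∧ (∀ j, ∃ i, e i * f j = f j ∧ f j * e i = f j) ∧
      (∀ i x, f i * x = x → x * f i = x →
        (∃ y, f i * y = y ∧ y * f i = y ∧ x * y = f i ∧ y * x = f i) ∨
        (∃ y, f i * y = y ∧ y * f i = y ∧ (f i - x) * y = f i ∧ y * (f i - x) = f i)) := by
  choose κ hκ f h1 h2 h3 h4 h5 using fun i => refine_one _ (e i) (he i) rfl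
  classical
  let E := Fintype.equivFin (Σ i, κ i)
  refine ⟨Fintype.card (Σ i, κ i), fun j => f (E.symm j).1 (E.symm j).2, fun j => h1 _ _, ?_, ?_,
    fun j => ⟨(E.symm j).1, h4 _ _⟩, fun j => h5 _ _⟩
  · intro i j hij
    have hij' : E.symm i ≠ E.symm j := fun h => hij (E.symm.injective h)
    change f (E.symm i).1 (E.symm i).2 * f (E.symm j).1 (E.symm j).2 = 0
    generalize E.symm i = u at hij' ⊢
    generalize E.symm j = v at hij' ⊢
    obtain ⟨a, x⟩ := u
    obtain ⟨b, y⟩ := v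
    by_cases hab : a = b
    · subst hab
      exact h2 a x y fun h => hij' (by rw [h])
    · change f a x * f b y = 0
      rw [← (h4 a x).2, ← (h4 b y).1, mul_assoc, ← mul_assoc (e a), ho a b hab, zero_mul, mul_zero]
  · rw [E.symm.sum_comp (fun q : Σ i, κ i => f q.1 q.2), Fintype.sum_sigma, ← hs]
    exact Finset.sum_congr rfl fun i _ => h3 i

end Vale.Agent.P183.H577
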